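/-
Helper44 — S0175 project, package G3, general part 2: the determinant of a continuous linear
endomorphism of a finite-dimensional space is a smooth function; hence the Jacobian determinant
of a smooth map is smooth, and it is nonzero where the derivative is injective.
-/
import Mathlib

set_option autoImplicit false
open Set Filter Topology
open scoped ContDiff

namespace Crest.Agent.Helper44

section Det

variable {P : Type*} [NormedAddCommGroup P] [NormedSpace ℝ P] [FiniteDimensional ℝ P]

/-- `f ↦ det f` is smooth on the space of continuous linear endomorphisms. -/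
theorem contDiff_clm_det : ContDiff ℝ ∞ (fun f : P →L[ℝ] P => f.det) := by
  classical
  let b := Module.finBasis ℝ P
  have h : ∀ f : P →L[ℝ] P,
      f.det = Matrix.det (LinearMap.toMatrix b b (f : P →ₗ[ℝ] P)) := by
    intro f
    rw [LinearMap.det_toMatrix]
  simp_rw [h, Matrix.det_apply]
  apply ContDiff.sum
  intro σ _
  apply ContDiff.const_smul
  apply contDiff_prod
  intro i _
  simp_rw [LinearMap.toMatrix_apply]
  have h1 : ContDiff ℝ ∞ (fun f : P →L[ℝ] P => f (b i)) :=
    (ContinuousLinearMap.apply ℝ P (b i)).contDiff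
  have h2 : ContDiff ℝ ∞ (fun x : P => b.repr x (σ i)) :=
    (LinearMap.toContinuousLinearMap (b.coord (σ i))).contDiff
  exact h2.comp h1

/-- The Jacobian determinant of a map that is smooth at `p` is smooth at `p`. -/
theorem contDiffAt_det_fderiv {Φ : P → P} {p : P} (hΦ : ContDiffAt ℝ ∞ Φ p) :
    ContDiffAt ℝ ∞ (fun q => (fderiv ℝ Φ q).det) p := by
  have h1 : ContDiffAt ℝ ∞ (fderiv ℝ Φ) p := hΦ.fderiv_right (by simp)
  exact (contDiff_clm_det (P := P)).contDiffAt.comp p h1

/-- An injective continuous linear endomorphism of a finite-dimensional space has nonzero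
determinant. -/
theorem clm_det_ne_zero_of_injective {f : P →L[ℝ] P} (hf : ∀ v, f v = 0 → v = 0) :
    f.det ≠ 0 := by
  intro h0
  have h1 : (⊥ : Submodule ℝ P) < LinearMap.ker (f : P →ₗ[ℝ] P) :=
    LinearMap.bot_lt_ker_of_det_eq_zero h0
  obtain ⟨v, hv, hv0⟩ := SetLike.exists_of_lt h1
  apply hv0
  have : f v = 0 := by simpa using hv
  rw [hf v this]
  exact Submodule.zero_mem _

/-- A continuous linear endomorphism with nonzero determinant, as a continuous linear
equivalence with the same underlying map (in the shape `contDiff_pushFun` wants). -/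
theorem exists_equiv_of_det_ne_zero {Φ : P → P} {p : P} (hd : DifferentiableAt ℝ Φ p)
    (hdet : (fderiv ℝ Φ p).det ≠ 0) :
    ∃ Φ' : P ≃L[ℝ] P, HasFDerivAt Φ (Φ' : P →L[ℝ] P) p := by
  refine ⟨(fderiv ℝ Φ p).toContinuousLinearEquivOfDetNeZero hdet, ?_⟩
  rw [ContinuousLinearMap.coe_toContinuousLinearEquivOfDetNeZero]
  exact hd.hasFDerivAt

end Det

end Crest.Agent.Helper44
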