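/-
Helper44 — S0175 project, package G3 (smooth density / change of variables), general part 1.

`pushFun Φ V G` : the function `G` on parameters transported along `Φ` (value `G p` at `Φ p`,
`p ∈ V`), extended by zero off `Φ '' V`.  If `Φ` is smooth with invertible derivative on the open
set `V`, `G` is smooth on `V` and constant on the fibres of `Φ`, and the image of the support of `G`
is contained in the image of a compact subset of `V`, then `pushFun Φ V G` is smooth with compact
support (local inverse function theorem; no global inverse is needed).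
-/
import Mathlib

set_option autoImplicit false
open Set Filter Topology
open scoped ContDiff

namespace Crest.Agent.Helper44

section PushFunBasic

variable {P E : Type*}

open Classical in
/-- transport of a function `G` on parameters along `Φ`, extended by zero off `Φ '' V` -/
noncomputable def pushFun (Φ : P → E) (V : Set P) (G : P → ℝ) (y : E) : ℝ :=
  if h : ∃ p ∈ V, Φ p = y then G h.choose else 0

theorem pushFun_apply {Φ : P → E} {V : Set P} {G : P → ℝ}
    (hfib : ∀ p ∈ V, ∀ p' ∈ V, Φ p = Φ p' → G p = G p') {p : P} (hp : p ∈ V) :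
    pushFun Φ V G (Φ p) = G p := by
  have h : ∃ q ∈ V, Φ q = Φ p := ⟨p, hp, rfl⟩
  rw [pushFun, dif_pos h]
  exact hfib _ h.choose_spec.1 _ hp h.choose_spec.2

theorem pushFun_of_not_mem {Φ : P → E} {V : Set P} {G : P → ℝ} {y : E} (hy : y ∉ Φ '' V) :
    pushFun Φ V G y = 0 := by
  rw [pushFun, dif_neg]
  rintro ⟨p, hp, rfl⟩
  exact hy ⟨p, hp, rfl⟩

theorem pushFun_nonneg {Φ : P → E} {V : Set P} {G : P → ℝ} (hG : ∀ p ∈ V, 0 ≤ G p) (y : E) :
    0 ≤ pushFun Φ V G y := by
  unfold pushFun
  split_ifs with h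
  · exact hG _ h.choose_spec.1
  · exact le_rfl

/-- the square of a transported function is the transported square -/
theorem pushFun_sq {Φ : P → E} {V : Set P} {G : P → ℝ} (y : E) :
    pushFun Φ V (fun p => G p ^ 2) y = pushFun Φ V G y ^ 2 := by
  unfold pushFun
  split_ifs with h
  · rfl
  · simp

theorem pushFun_eq_zero_of_forall {Φ : P → E} {V : Set P} {G : P → ℝ} {y : E}
    (h : ∀ p ∈ V, Φ p = y → G p = 0) : pushFun Φ V G y = 0 := by
  unfold pushFun
  split_ifs with h'
  · exact h _ h'.choose_spec.1 h'.choose_spec.2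
  · rfl

theorem support_pushFun_subset {Φ : P → E} {V : Set P} {G : P → ℝ} {K : Set P}
    (hsupp : ∀ p ∈ V, G p ≠ 0 → Φ p ∈ Φ '' K) :
    Function.support (pushFun Φ V G) ⊆ Φ '' K := by
  intro y hy
  by_contra hyK
  apply hy
  apply pushFun_eq_zero_of_forall
  intro p hp hpy
  by_contra hne
  exact hyK (hpy ▸ hsupp p hp hne)

end PushFunBasic

section PushFun

variable {P E : Type*} [NormedAddCommGroup P] [NormedSpace ℝ P] [CompleteSpace P]
  [NormedAddCommGroup E] [NormedSpace ℝ E]

theorem contDiff_pushFun {Φ : P → E} {V : Set P} {G : P → ℝ} (hV : IsOpen V)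
    (hΦ : ∀ p ∈ V, ContDiffAt ℝ ∞ Φ p)
    (hΦ' : ∀ p ∈ V, ∃ Φ' : P ≃L[ℝ] E, HasFDerivAt Φ (Φ' : P →L[ℝ] E) p)
    (hG : ∀ p ∈ V, ContDiffAt ℝ ∞ G p)
    (hfib : ∀ p ∈ V, ∀ p' ∈ V, Φ p = Φ p' → G p = G p')
    {K : Set P} (hK : IsCompact K) (hKV : K ⊆ V) (hsupp : ∀ p ∈ V, G p ≠ 0 → Φ p ∈ Φ '' K) :
    ContDiff ℝ ∞ (pushFun Φ V G) ∧ HasCompactSupport (pushFun Φ V G) := by
  have hcont : ContinuousOn Φ K := fun p hp => (hΦ p (hKV hp)).continuousAt.continuousWithinAt
  have hcK : IsCompact (Φ '' K) := hK.image_of_continuousOn hcont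
  have hsub := support_pushFun_subset (Φ := Φ) (V := V) (G := G) hsupp
  refine ⟨?_, ?_⟩
  · rw [contDiff_iff_contDiffAt]
    intro y
    by_cases hy : y ∈ Φ '' V
    · obtain ⟨p, hp, rfl⟩ := hy
      obtain ⟨Φ', hΦ'p⟩ := hΦ' p hp
      have hn : (∞ : WithTop ℕ∞) ≠ 0 := by simp
      have hψ := (hΦ p hp).to_localInverse hΦ'p hn
      have hstrict := (hΦ p hp).hasStrictFDerivAt' hΦ'p hn
      have hright : ∀ᶠ y in 𝓝 (Φ p), Φ ((hΦ p hp).localInverse hΦ'p hn y) = y :=
        hstrict.eventually_right_inverse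
      have himg : (hΦ p hp).localInverse hΦ'p hn (Φ p) = p :=
        (hΦ p hp).localInverse_apply_image hΦ'p hn
      have hmem : ∀ᶠ y in 𝓝 (Φ p), (hΦ p hp).localInverse hΦ'p hn y ∈ V := by
        have hc : ContinuousAt ((hΦ p hp).localInverse hΦ'p hn) (Φ p) := hψ.continuousAt
        apply hc
        rw [himg]
        exact hV.mem_nhds hp
      have hGψ : ContDiffAt ℝ ∞ (G ∘ (hΦ p hp).localInverse hΦ'p hn) (Φ p) := by
        apply ContDiffAt.comp _ _ hψ
        rw [himg]
        exact hG p hp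
      refine hGψ.congr_of_eventuallyEq ?_
      filter_upwards [hright, hmem] with y hy1 hy2
      have := pushFun_apply (Φ := Φ) (G := G) hfib hy2
      rw [hy1] at this
      exact this
    · have hyK : y ∉ Φ '' K := fun h => hy (image_mono hKV h)
      have hev : ∀ᶠ y' in 𝓝 y, y' ∉ Φ '' K :=
        hcK.isClosed.isOpen_compl.mem_nhds hyK
      have hzero : pushFun Φ V G =ᶠ[𝓝 y] fun _ => (0 : ℝ) := by
        filter_upwards [hev] with y' hy'
        by_contra hne
        exact hy' (hsub hne)
      exact contDiffAt_const.congr_of_eventuallyEq hzero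
  · exact HasCompactSupport.of_support_subset_isCompact hcK hsub

end PushFun

end Crest.Agent.Helper44
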