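/-
Helper44 — S0175 project, package G3, general part 3: the measure identity.
If `Φ` is injective and differentiable on a measurable fundamental domain `V₀ ⊆ V`
(`Φ '' V ⊆ Φ '' V₀`), then the image under `Φ` of the measure on `V₀` with density
`|det DΦ| * G` is the measure with density `pushFun Φ V G`.
-/
import Crest.Agent.Helper44.CoV.PushFun

set_option autoImplicit false
open Set Filter Topology MeasureTheory
open scoped ContDiff ENNReal

namespace Crest.Agent.Helper44

section MapDensity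

variable {P : Type*} [NormedAddCommGroup P] [NormedSpace ℝ P] [FiniteDimensional ℝ P]
  [MeasurableSpace P] [BorelSpace P]

theorem map_withDensity_pushFun (μ : Measure P) [μ.IsAddHaarMeasure]
    {Φ : P → P} {Φ' : P → P →L[ℝ] P} {V V₀ : Set P} {G : P → ℝ}
    (hV₀ : MeasurableSet V₀) (hV₀V : V₀ ⊆ V) (himg : Φ '' V ⊆ Φ '' V₀)
    (hΦ' : ∀ p ∈ V₀, HasFDerivWithinAt Φ (Φ' p) V₀ p) (hinj : InjOn Φ V₀)
    (hfib : ∀ p ∈ V, ∀ p' ∈ V, Φ p = Φ p' → G p = G p') :
    ((μ.restrict V₀).withDensity (fun p => ENNReal.ofReal (|(Φ' p).det| * G p))).map Φ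
      = μ.withDensity (fun y => ENNReal.ofReal (pushFun Φ V G y)) := by
  have h'f : AEMeasurable Φ (μ.restrict V₀) :=
    ContinuousOn.aemeasurable (fun x hx => (hΦ' x hx).continuousWithinAt) hV₀
  have h''f : AEMeasurable Φ
      ((μ.restrict V₀).withDensity (fun p => ENNReal.ofReal (|(Φ' p).det| * G p))) :=
    h'f.mono_ac (withDensity_absolutelyContinuous _ _)
  apply Measure.ext
  intro S hS
  have h't : NullMeasurableSet (Φ ⁻¹' S) (μ.restrict V₀) := h'f.nullMeasurableSet_preimage hS
  rw [Measure.map_apply_of_aemeasurable h''f hS, withDensity_apply₀ _ h't,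
    withDensity_apply _ hS, ← lintegral_indicator₀ h't, ← lintegral_indicator hS]
  set g : P → ℝ≥0∞ := S.indicator (fun y => ENNReal.ofReal (pushFun Φ V G y)) with hg
  have hsupp : Function.support g ⊆ Φ '' V₀ := by
    intro y hy
    by_contra hy'
    apply hy
    have : pushFun Φ V G y = 0 := pushFun_of_not_mem (fun h => hy' (himg h))
    simp [hg, this]
  have h1 : ∫⁻ y, g y ∂μ = ∫⁻ y in Φ '' V₀, g y ∂μ :=
    (setLIntegral_eq_of_support_subset hsupp).symm
  rw [h1, lintegral_image_eq_lintegral_abs_det_fderiv_mul μ hV₀ hΦ' hinj g]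
  apply setLIntegral_congr_fun hV₀
  intro p hp
  show (Φ ⁻¹' S).indicator (fun a => ENNReal.ofReal (|(Φ' a).det| * G a)) p =
    ENNReal.ofReal |(Φ' p).det| * S.indicator (fun y => ENNReal.ofReal (pushFun Φ V G y)) (Φ p)
  by_cases hpS : Φ p ∈ S
  · have hpS' : p ∈ Φ ⁻¹' S := hpS
    rw [Set.indicator_of_mem hpS', Set.indicator_of_mem hpS, pushFun_apply hfib (hV₀V hp),
      ENNReal.ofReal_mul (abs_nonneg _)]
  · have hpS' : p ∉ Φ ⁻¹' S := hpS
    rw [Set.indicator_of_notMem hpS', Set.indicator_of_notMem hpS, mul_zero]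

end MapDensity

end Crest.Agent.Helper44
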